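import Mathlib

namespace Vale.Agent.P199

open scoped Pointwise

variable {D : Type*} [DivisionRing D]

/-- `F(S)`: the division subring of `D` generated by the centre `F` of `D` and the set `S`. -/
def divGen (D : Type*) [DivisionRing D] (S : Set D) : Subfield D :=
  Subfield.closure ((Subring.center D : Set D) ∪ S)

/-- `D` is locally finite: `[F(S) : F] < ∞` for every finite subset `S` of `D`, `F` the centre. -/
def LocallyFinite (D : Type*) [DivisionRing D] : Prop :=
  ∀ S : Finset D, FiniteDimensional (Subring.center D)
    (Submodule.span (Subring.center D) (divGen D (S : Set D) : Set D))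

section general

variable {F : Type*} [Field F] [Algebra F D]

theorem inv_mem_of_finiteDimensional (A : Subalgebra F D) [FiniteDimensional F A] {x : D}
    (hx : x ∈ A) : x⁻¹ ∈ A := by
  by_cases h0 : x = 0
  · simp [h0]
  let f : A →ₗ[F] A := LinearMap.mulLeft F (⟨x, hx⟩ : A)
  have hinj : Function.Injective f := by
    intro y z hyz
    have h1 : x * (y : D) = x * (z : D) := congrArg Subtype.val hyz
    exact Subtype.ext (mul_left_cancel₀ h0 h1)
  have hsurj : Function.Surjective f := LinearMap.injective_iff_surjective.mp hinj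
  obtain ⟨y, hy⟩ := hsurj 1
  have h1 : x * (y : D) = 1 := congrArg Subtype.val hy
  have : x⁻¹ = (y : D) := inv_eq_of_mul_eq_one_right h1
  rw [this]
  exact y.2

/-- Cartan-Brauer-Hua for a subalgebra closed under inverses. -/
theorem cartan_brauer_hua (R : Subalgebra F D) (hinv : ∀ r ∈ R, r⁻¹ ∈ R)
    (hconj : ∀ d : D, d ≠ 0 → ∀ r ∈ R, d * r * d⁻¹ ∈ R) :
    R = ⊤ ∨ ∀ r ∈ R, ∀ d : D, d * r = r * d := by
  by_cases htop : R = ⊤
  · exact Or.inl htop
  right
  -- an element outside R
  obtain ⟨a, ha⟩ : ∃ a : D, a ∉ R := by
    by_contra h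
    push Not at h
    exact htop (eq_top_iff.mpr fun x _ => h x)
  -- every element outside R commutes with every element of R
  have key : ∀ b : D, b ∉ R → ∀ k ∈ R, b * k = k * b := by
    intro b hb k hk
    have hb0 : b ≠ 0 := fun h => hb (h ▸ R.zero_mem)
    have hb1 : 1 + b ≠ 0 := by
      intro h
      apply hb
      have : b = -1 := by
        have := eq_neg_of_add_eq_zero_right h
        exact this
      rw [this]
      exact R.neg_mem R.one_mem
    set k1 := b * k * b⁻¹ with hk1
    set k2 := (1 + b) * k * (1 + b)⁻¹ with hk2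
    have hk1R : k1 ∈ R := hconj b hb0 k hk
    have hk2R : k2 ∈ R := hconj (1 + b) hb1 k hk
    have e1 : b * k = k1 * b := by
      rw [hk1, mul_assoc, inv_mul_cancel₀ hb0, mul_one]
    have e2 : (1 + b) * k = k2 * (1 + b) := by
      rw [hk2, mul_assoc, inv_mul_cancel₀ hb1, mul_one]
    have e3 : (k1 - k2) * b = k2 - k := by
      have : k + b * k = k2 + k2 * b := by
        have := e2
        rw [add_mul, one_mul, mul_add, mul_one] at this
        exact this
      rw [sub_mul, ← e1]
      have h2 : b * k = k2 + k2 * b - k := by rw [← this]; abel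
      rw [h2]; abel
    by_cases h12 : k1 = k2
    · have : k2 = k := by
        rw [h12, sub_self, zero_mul] at e3
        exact (sub_eq_zero.mp e3.symm)
      rw [e1, h12, this]
    · exfalso
      apply hb
      have hne : k1 - k2 ≠ 0 := sub_ne_zero.mpr h12
      have : b = (k1 - k2)⁻¹ * (k2 - k) := by
        rw [← e3, ← mul_assoc, inv_mul_cancel₀ hne, one_mul]
      rw [this]
      exact R.mul_mem (hinv _ (R.sub_mem hk1R hk2R)) (R.sub_mem hk2R hk)
  intro r hr d
  by_cases hd : d ∈ R
  · have h1 : a + d ∉ R := fun h => ha (by simpa using R.sub_mem h hd)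
    have h2 := key (a + d) h1 r hr
    have h3 := key a ha r hr
    rw [add_mul, mul_add, h3] at h2
    exact add_left_cancel h2
  · exact key d hd r hr

theorem exists_finset_of_mem_adjoin {C : Set D} {x : D} (hx : x ∈ Algebra.adjoin F C) :
    ∃ T : Finset D, (T : Set D) ⊆ C ∧ x ∈ Algebra.adjoin F (T : Set D) := by
  classical
  induction hx using Algebra.adjoin_induction with
  | mem x hx => exact ⟨{x}, by simpa using hx, Algebra.subset_adjoin (by simp)⟩
  | algebraMap r => exact ⟨∅, by simp, Subalgebra.algebraMap_mem _ r⟩
  | add x y _ _ hx hy =>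
    obtain ⟨T1, h1, h1'⟩ := hx
    obtain ⟨T2, h2, h2'⟩ := hy
    refine ⟨T1 ∪ T2, by simp [h1, h2], ?_⟩
    exact Subalgebra.add_mem _ (Algebra.adjoin_mono (by simp) h1') (Algebra.adjoin_mono (by simp) h2')
  | mul x y _ _ hx hy =>
    obtain ⟨T1, h1, h1'⟩ := hx
    obtain ⟨T2, h2, h2'⟩ := hy
    refine ⟨T1 ∪ T2, by simp [h1, h2], ?_⟩
    exact Subalgebra.mul_mem _ (Algebra.adjoin_mono (by simp) h1') (Algebra.adjoin_mono (by simp) h2')

theorem finiteDimensional_adjoin_mono {S T : Set D} (h : S ⊆ T)
    (hT : FiniteDimensional F (Algebra.adjoin F T)) : FiniteDimensional F (Algebra.adjoin F S) := by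
  rw [← Subalgebra.finiteDimensional_toSubmodule] at hT ⊢
  exact Submodule.finiteDimensional_of_le
    (Subalgebra.toSubmodule.monotone (Algebra.adjoin_mono h))

end general

theorem adjoin_subset_divGen (S : Set D) :
    (Algebra.adjoin (Subring.center D) S : Set D) ⊆ divGen D S := by
  intro x hx
  induction hx using Algebra.adjoin_induction with
  | mem x hx => exact Subfield.subset_closure (Or.inr hx)
  | algebraMap r => exact Subfield.subset_closure (Or.inl r.2)
  | add x y _ _ hx hy => exact add_mem hx hy
  | mul x y _ _ hx hy => exact mul_mem hx hy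

theorem divGen_subset_adjoin (S : Set D)
    (h : FiniteDimensional (Subring.center D) (Algebra.adjoin (Subring.center D) S)) :
    (divGen D S : Set D) ⊆ Algebra.adjoin (Subring.center D) S := by
  let K : Subfield D :=
    { (Algebra.adjoin (Subring.center D) S).toSubring with
      inv_mem' := fun x hx => inv_mem_of_finiteDimensional _ hx }
  have : divGen D S ≤ K := by
    refine Subfield.closure_le.mpr ?_
    rintro x (hx | hx)
    · exact Subalgebra.algebraMap_mem (Algebra.adjoin (Subring.center D) S) (⟨x, hx⟩ : Subring.center D)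
    · exact Algebra.subset_adjoin hx
  exact this

theorem locallyFinite_iff : LocallyFinite D ↔ ∀ S : Finset D,
    FiniteDimensional (Subring.center D) (Algebra.adjoin (Subring.center D) (S : Set D)) := by
  constructor
  · intro h S
    have := h S
    rw [← Subalgebra.finiteDimensional_toSubmodule]
    refine Submodule.finiteDimensional_of_le (S₂ := Submodule.span (Subring.center D)
      (divGen D (S : Set D) : Set D)) ?_
    intro x hx
    exact Submodule.subset_span (adjoin_subset_divGen _ hx)
  · intro h S
    have h1 := h S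
    have h2 := h1
    rw [← Subalgebra.finiteDimensional_toSubmodule] at h2
    refine Submodule.finiteDimensional_of_le
      (S₂ := Subalgebra.toSubmodule (Algebra.adjoin (Subring.center D) (S : Set D))) ?_
    exact Submodule.span_le.mpr (divGen_subset_adjoin _ h1)

end Vale.Agent.P199
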