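import Vale.Agent.P199.Basic

namespace Vale.Agent.P199

variable {D : Type*} [DivisionRing D] {k : Type*} [Field k] [Algebra k D]

theorem algebraMap_mem_center (c : k) : algebraMap k D c ∈ Subring.center D :=
  Subring.mem_center_iff.mpr fun g => (Algebra.commutes c g).symm

/-- a subalgebra criterion: a `k`-submodule containing `1`, `S` and closed under products contains
`k[S]`. -/
theorem adjoin_le_of_mul_closed (S : Set D) (M : Submodule k D) (h1 : (1 : D) ∈ M) (hS : S ⊆ M)
    (hmul : ∀ x ∈ M, ∀ y ∈ M, x * y ∈ M) : Subalgebra.toSubmodule (Algebra.adjoin k S) ≤ M := by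
  intro x hx
  have hx' : x ∈ Algebra.adjoin k S := hx
  clear hx
  induction hx' using Algebra.adjoin_induction with
  | mem x hx => exact hS hx
  | algebraMap r =>
    rw [Algebra.algebraMap_eq_smul_one]
    exact M.smul_mem r h1
  | add x y _ _ ihx ihy => exact M.add_mem ihx ihy
  | mul x y _ _ ihx ihy => exact hmul _ ihx _ ihy

/-- If `k[S]` is finite-dimensional over the central subfield `k`, then `F[S]` is finite-dimensional
over the centre `F`. -/
theorem fd_center_of_fd (S : Set D) (h : FiniteDimensional k (Algebra.adjoin k S)) :
    FiniteDimensional (Subring.center D) (Algebra.adjoin (Subring.center D) S) := by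
  set F := Subring.center D with hF
  have hfg : (Subalgebra.toSubmodule (Algebra.adjoin k S)).FG :=
    Module.Finite.iff_fg.mp (Subalgebra.finiteDimensional_toSubmodule.mpr h)
  obtain ⟨W, hW⟩ := hfg
  set M : Submodule F D := Submodule.span F (Algebra.adjoin k S : Set D) with hM
  have hMW : M ≤ Submodule.span F (W : Set D) := by
    refine Submodule.span_le.mpr ?_
    intro x hx
    have hx' : x ∈ Submodule.span k (W : Set D) := by rw [hW]; exact hx
    clear hx
    induction hx' using Submodule.span_induction with
    | mem x hx => exact Submodule.subset_span hx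
    | zero => exact Submodule.zero_mem _
    | add x y _ _ hx hy => exact Submodule.add_mem _ hx hy
    | smul c x _ hx =>
      have : c • x = (⟨algebraMap k D c, algebraMap_mem_center c⟩ : F) • x := by
        rw [Algebra.smul_def, Subring.smul_def, smul_eq_mul]
      rw [this]
      exact Submodule.smul_mem _ _ hx
  have hmul : ∀ x ∈ M, ∀ y ∈ M, x * y ∈ M := by
    intro x hx y hy
    have : M * M ≤ M := by
      rw [hM, Submodule.span_mul_span]
      refine Submodule.span_mono ?_
      rintro _ ⟨a, ha, b, hb, rfl⟩
      exact Subalgebra.mul_mem _ ha hb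
    exact this (Submodule.mul_mem_mul hx hy)
  have hle : Subalgebra.toSubmodule (Algebra.adjoin F S) ≤ M :=
    adjoin_le_of_mul_closed S M (Submodule.subset_span (Subalgebra.one_mem _))
      (fun s hs => Submodule.subset_span (Algebra.subset_adjoin hs)) hmul
  rw [← Subalgebra.finiteDimensional_toSubmodule]
  have : FiniteDimensional F (Submodule.span F (W : Set D)) :=
    Module.Finite.iff_fg.mpr ⟨W, rfl⟩
  exact Submodule.finiteDimensional_of_le (hle.trans hMW)

/-- finitely many central elements, integral over `k`, generate a finite-dimensional subalgebra all of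
whose elements are central. -/
theorem fg_adjoin_central [Algebra.IsAlgebraic k D] (C : Finset D)
    (hC : ∀ c ∈ C, c ∈ Subalgebra.center k D) :
    (Subalgebra.toSubmodule (Algebra.adjoin k (C : Set D))).FG := by
  classical
  set Z := Subalgebra.center k D with hZ
  let CZ : Set Z := {z | (z : D) ∈ C}
  have hfin : CZ.Finite := by
    refine Set.Finite.of_injOn (f := fun z : Z => (z : D)) (t := (C : Set D)) ?_ ?_ C.finite_toSet
    · intro z hz; exact hz
    · intro a _ b _ hab; exact Subtype.ext hab
  have hint : ∀ z ∈ CZ, IsIntegral k z := by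
    intro z _
    have : IsIntegral k (z : D) := Algebra.IsIntegral.isIntegral _
    exact (isIntegral_algHom_iff Z.val Subtype.val_injective).mp this
  have h1 := fg_adjoin_of_finite hfin hint
  have h2 : (Algebra.adjoin k CZ).map Z.val = Algebra.adjoin k (C : Set D) := by
    rw [AlgHom.map_adjoin]
    congr 1
    ext x
    constructor
    · rintro ⟨z, hz, rfl⟩; exact hz
    · intro hx; exact ⟨⟨x, hC x hx⟩, hx, rfl⟩
  rw [← h2]
  have h3 := h1.map Z.val.toLinearMap
  convert! h3 using 1

/-- If `D` is algebraic over the central subfield `k` and `F[S]` is finite-dimensional over the centre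
`F`, `S` finite, then `k[S]` is finite-dimensional over `k`. -/
theorem fd_of_fd_center [Algebra.IsAlgebraic k D] (S : Finset D)
    (h : FiniteDimensional (Subring.center D) (Algebra.adjoin (Subring.center D) (S : Set D))) :
    FiniteDimensional k (Algebra.adjoin k (S : Set D)) := by
  classical
  set F := Subring.center D with hF
  set A := Algebra.adjoin F (S : Set D) with hA
  have hfg : (Subalgebra.toSubmodule A).FG :=
    Module.Finite.iff_fg.mp (Subalgebra.finiteDimensional_toSubmodule.mpr h)
  obtain ⟨W, hW⟩ := hfg
  have hWA : ∀ w ∈ W, w ∈ A := by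
    intro w hw
    have : w ∈ Submodule.span F (W : Set D) := Submodule.subset_span hw
    rw [hW] at this
    exact this
  have hcoef : ∀ x : D, x ∈ A → ∃ f : D → F, ∑ l ∈ W, f l • l = x := by
    intro x hx
    have : x ∈ Submodule.span F (W : Set D) := by rw [hW]; exact hx
    obtain ⟨f, _, hf⟩ := Submodule.mem_span_finset.mp this
    exact ⟨f, hf⟩
  choose! coef hcoef' using hcoef
  -- the finitely many elements whose coordinates we need
  set X : Finset D := insert 1 (S ∪ (W ×ˢ W).image (fun p => p.1 * p.2)) with hX
  have hXA : ∀ x ∈ X, x ∈ A := by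
    intro x hx
    simp only [hX, Finset.mem_insert, Finset.mem_union, Finset.mem_image, Finset.mem_product,
      Prod.exists] at hx
    rcases hx with rfl | hx | ⟨a, b, ⟨ha, hb⟩, rfl⟩
    · exact A.one_mem
    · exact Algebra.subset_adjoin hx
    · exact A.mul_mem (hWA a ha) (hWA b hb)
  set C : Finset D := (X ×ˢ W).image (fun p => ((coef p.1 p.2 : F) : D)) with hC
  have hCcen : ∀ c ∈ C, c ∈ Subalgebra.center k D := by
    intro c hc
    simp only [hC, Finset.mem_image, Finset.mem_product, Prod.exists] at hc
    obtain ⟨x, l, _, rfl⟩ := hc
    exact Subalgebra.mem_center_iff.mpr fun g => Subring.mem_center_iff.mp (coef x l).2 g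
  set P := Algebra.adjoin k (C : Set D) with hP
  have hPfg : (Subalgebra.toSubmodule P).FG := fg_adjoin_central C hCcen
  have hPcen : ∀ p ∈ P, ∀ g : D, g * p = p * g := by
    intro p hp g
    have : P ≤ Subalgebra.center k D := Algebra.adjoin_le hCcen
    exact Subalgebra.mem_center_iff.mp (this hp) g
  set M : Submodule k D := Subalgebra.toSubmodule P * Submodule.span k (W : Set D) with hM
  have hMfg : M.FG := hPfg.mul ⟨W, rfl⟩
  -- every x in X lies in M, even after multiplication by P
  have hXM : ∀ x ∈ X, ∀ p ∈ P, p * x ∈ M := by
    intro x hx p hp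
    rw [← hcoef' x (hXA x hx), Finset.mul_sum]
    refine Submodule.sum_mem _ ?_
    intro l hl
    have hc : ((coef x l : F) : D) ∈ P := Algebra.subset_adjoin (by
      simp only [hC, Finset.coe_image, Set.mem_image]
      exact ⟨(x, l), by simp [hx, hl], rfl⟩)
    have : p * (coef x l • l) = (p * ((coef x l : F) : D)) * l := by
      rw [Subring.smul_def, smul_eq_mul, mul_assoc]
    rw [this]
    exact Submodule.mul_mem_mul (P.mul_mem hp hc) (Submodule.subset_span hl)
  have hmul : ∀ x ∈ M, ∀ y ∈ M, x * y ∈ M := by
    intro x hx y hy
    have hgen : ∀ p ∈ P, ∀ w ∈ Submodule.span k (W : Set D), ∀ p' ∈ P,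
        ∀ w' ∈ Submodule.span k (W : Set D), (p * w) * (p' * w') ∈ M := by
      intro p hp w hw p' hp' w' hw'
      have e : (p * w) * (p' * w') = (p * p') * (w * w') := by
        rw [mul_assoc, ← mul_assoc w, hPcen p' hp' w]
        simp only [mul_assoc]
      rw [e]
      clear e
      induction hw using Submodule.span_induction with
      | mem w hw =>
        induction hw' using Submodule.span_induction with
        | mem w' hw' =>
          refine hXM (w * w') ?_ _ (P.mul_mem hp hp')
          simp only [hX, Finset.mem_insert, Finset.mem_union, Finset.mem_image, Finset.mem_product,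
            Prod.exists]
          exact Or.inr (Or.inr ⟨w, w', ⟨hw, hw'⟩, rfl⟩)
        | zero => simp
        | add a b _ _ ha hb => rw [mul_add, mul_add]; exact M.add_mem ha hb
        | smul c a _ ha => rw [mul_smul_comm, mul_smul_comm]; exact M.smul_mem c ha
      | zero => simp
      | add a b _ _ ha hb =>
        rw [add_mul, mul_add]
        exact M.add_mem ha hb
      | smul c a _ ha =>
        rw [smul_mul_assoc, mul_smul_comm]
        exact M.smul_mem c ha
    refine Submodule.mul_induction_on hx ?_ ?_
    · intro p hp w hw
      refine Submodule.mul_induction_on hy ?_ ?_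
      · intro p' hp' w' hw'
        exact hgen p hp w hw p' hp' w' hw'
      · intro u v hu hv
        rw [mul_add]; exact M.add_mem hu hv
    · intro u v hu hv
      rw [add_mul]; exact M.add_mem hu hv
  have h1M : (1 : D) ∈ M := by
    have := hXM 1 (by simp [hX]) 1 P.one_mem
    simpa using this
  have hSM : (S : Set D) ⊆ M := by
    intro s hs
    have := hXM s (by simp only [hX, Finset.mem_insert, Finset.mem_union]; exact Or.inr (Or.inl hs))
      1 P.one_mem
    simpa using this
  have hle := adjoin_le_of_mul_closed (S : Set D) M h1M hSM hmul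
  rw [← Subalgebra.finiteDimensional_toSubmodule]
  have : FiniteDimensional k M := Module.Finite.iff_fg.mpr hMfg
  exact Submodule.finiteDimensional_of_le hle

end Vale.Agent.P199
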