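import Vale.Agent.P199.Twist

namespace Vale.Agent.P199

open Polynomial

variable {D : Type*} [DivisionRing D] {F : Type*} [Field F] [Algebra F D]

theorem caseA {a w a' : D} (ha : IsIntegral F a) (hw : IsIntegral F w)
    (ha' : a' ∈ Algebra.adjoin F {a}) (h : a * w = w * a') :
    FiniteDimensional F (Algebra.adjoin F {a, w}) := by
  refine finiteDimensional_adjoin_pair ha hw ?_
  intro k hk
  have : ∃ k' ∈ Algebra.adjoin F {a}, k * w = w * k' := by
    induction hk using Algebra.adjoin_induction with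
    | mem y hy =>
      rw [Set.mem_singleton_iff.mp hy]
      exact ⟨a', ha', h⟩
    | algebraMap r => exact ⟨algebraMap F D r, Subalgebra.algebraMap_mem _ r, Algebra.commutes r w⟩
    | add p q _ _ hp hq =>
      obtain ⟨p', hp', ep⟩ := hp
      obtain ⟨q', hq', eq⟩ := hq
      exact ⟨p' + q', Subalgebra.add_mem _ hp' hq', by rw [add_mul, mul_add, ep, eq]⟩
    | mul p q _ _ hp hq =>
      obtain ⟨p', hp', ep⟩ := hp
      obtain ⟨q', hq', eq⟩ := hq
      exact ⟨p' * q', Subalgebra.mul_mem _ hp' hq', by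
        rw [mul_assoc, eq, ← mul_assoc, ep, mul_assoc]⟩
  obtain ⟨k', hk', e⟩ := this
  rw [e]
  exact Submodule.mul_mem_mul (Algebra.subset_adjoin rfl) hk'

theorem caseB {a c : D} (ha : IsIntegral F a) (hc : IsIntegral F c) (h : a * c - c * a = 1) :
    FiniteDimensional F (Algebra.adjoin F {a, c}) := by
  rw [Set.pair_comm]
  refine finiteDimensional_adjoin_pair hc ha ?_
  intro k hk
  have : ∃ k' ∈ Algebra.adjoin F {c}, k * a = a * k + k' := by
    induction hk using Algebra.adjoin_induction with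
    | mem y hy =>
      rw [Set.mem_singleton_iff.mp hy]
      refine ⟨-1, Subalgebra.neg_mem _ (Subalgebra.one_mem _), ?_⟩
      rw [← h]; abel
    | algebraMap r =>
      exact ⟨0, Subalgebra.zero_mem _, by rw [add_zero]; exact Algebra.commutes r a⟩
    | add p q _ _ hp hq =>
      obtain ⟨p', hp', ep⟩ := hp
      obtain ⟨q', hq', eq⟩ := hq
      exact ⟨p' + q', Subalgebra.add_mem _ hp' hq', by rw [add_mul, mul_add, ep, eq]; abel⟩
    | mul p q hpm hqm hp hq =>
      obtain ⟨p', hp', ep⟩ := hp
      obtain ⟨q', hq', eq⟩ := hq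
      refine ⟨p' * q + p * q', Subalgebra.add_mem _ (Subalgebra.mul_mem _ hp' hqm)
        (Subalgebra.mul_mem _ hpm hq'), ?_⟩
      rw [mul_assoc, eq, mul_add, ← mul_assoc, ep, add_mul, mul_assoc, add_assoc]
  obtain ⟨k', hk', e⟩ := this
  rw [e]
  refine Submodule.add_mem _ (Submodule.mul_mem_mul (Algebra.subset_adjoin rfl) hk) ?_
  have := Submodule.mul_mem_mul (M := Subalgebra.toSubmodule (Algebra.adjoin F {a}))
    (N := Subalgebra.toSubmodule (Algebra.adjoin F {c})) (Subalgebra.one_mem _) hk'
  simpa using this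

/-- If `a` is not central in the algebraic division algebra `D` over `F` and the minimal polynomial of
`a` splits in the field `F[X]/(minpoly)`, i.e. `F(a)/F` is normal, then `a` lies in a noncommutative
finite-dimensional `F`-subalgebra of `D`. -/
theorem exists_noncomm_fd [Algebra.IsAlgebraic F D] (a y : D) (hy : a * y ≠ y * a)
    (hsplit : ((minpoly F a).map (algebraMap F (AdjoinRoot (minpoly F a)))).Splits) :
    ∃ x : D, a * x ≠ x * a ∧ FiniteDimensional F (Algebra.adjoin F {a, x}) := by
  classical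
  have hint : ∀ z : D, IsIntegral F z := fun z => Algebra.IsIntegral.isIntegral z
  have ha := hint a
  set f := minpoly F a with hf
  have : Fact (Irreducible f) := ⟨minpoly.irreducible ha⟩
  have hmonic : f.Monic := minpoly.monic ha
  set K := AdjoinRoot f with hK
  set g := f.map (algebraMap F K) with hg
  have hgm : g.Monic := hmonic.map _
  set r0 : K := AdjoinRoot.root f with hr0
  have hroot : r0 ∈ g.roots := by
    rw [mem_roots hgm.ne_zero, IsRoot.def, hg, eval_map, AdjoinRoot.algebraMap_eq]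
    exact AdjoinRoot.eval₂_root f
  set l := g.roots.toList with hl
  have hr0l : r0 ∈ l := by simpa [hl] using hroot
  set t := l.erase r0 with ht
  have hprod : g = (t.map (fun r => X - C r)).prod * (X - C r0) := by
    have h1 : g = (g.roots.map (fun r => X - C r)).prod := hsplit.eq_prod_roots_of_monic hgm
    have h2 : (g.roots.map (fun r => X - C r)).prod = (l.map (fun r => X - C r)).prod := by
      conv_lhs => rw [← Multiset.coe_toList g.roots]
      rw [Multiset.map_coe, Multiset.prod_coe]
    rw [h1, h2, mul_comm]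
    exact (List.prod_map_erase (fun r => X - C r) hr0l).symm
  let φ : K →ₐ[F] D := Ideal.Quotient.liftₐ (Ideal.span {f}) (aeval a) (by
    intro p hp
    obtain ⟨q, rfl⟩ := Ideal.mem_span_singleton.mp hp
    rw [map_mul, hf, minpoly.aeval, zero_mul])
  have hφmk : ∀ p : F[X], φ (AdjoinRoot.mk f p) = aeval a p := fun p => rfl
  have hφr0 : φ r0 = a := by
    rw [hr0, AdjoinRoot.root, hφmk, aeval_X]
  have hφmem : ∀ k : K, φ k ∈ Algebra.adjoin F {a} := by
    intro k
    obtain ⟨p, rfl⟩ := AdjoinRoot.mk_surjective k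
    rw [hφmk]
    exact aeval_mem_adjoin_singleton F a
  have h0 : ev φ a g y = 0 := by
    rw [hg, ev_map, hf, minpoly.aeval, zero_mul]
  rw [hprod, map_mul, Module.End.mul_apply] at h0
  have hne : ev φ a (X - C r0) y ≠ 0 := by
    rw [ev_X_sub_C, hφr0]
    exact sub_ne_zero.mpr hy
  obtain ⟨r, _, y', hw, hrw⟩ := exists_twist φ a r0 t y hne h0
  set w := ev φ a (X - C r0) y' with hwdef
  have hw' : w = a * y' - y' * a := by rw [hwdef, ev_X_sub_C, hφr0]
  rw [ev_X_sub_C] at hrw
  have hrw' : a * w = w * φ r := sub_eq_zero.mp hrw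
  by_cases hcase : φ r = a
  · -- inseparable case
    rw [hcase] at hrw'
    have hwinv : a * w⁻¹ = w⁻¹ * a := by
      have : w⁻¹ * (a * w) * w⁻¹ = w⁻¹ * (w * a) * w⁻¹ := by rw [hrw']
      rw [← mul_assoc, mul_assoc, mul_inv_cancel₀ hw, mul_one, ← mul_assoc, inv_mul_cancel₀ hw,
        one_mul] at this
      exact this.symm
    refine ⟨y' * w⁻¹, ?_, ?_⟩
    · intro h
      have h1 : a * (y' * w⁻¹) - y' * w⁻¹ * a = 1 := by
        rw [mul_assoc y', ← hwinv, ← mul_assoc, ← mul_assoc, ← sub_mul, ← hw', mul_inv_cancel₀ hw]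
      rw [h, sub_self] at h1
      exact zero_ne_one h1
    · refine caseB ha (hint _) ?_
      rw [mul_assoc y', ← hwinv, ← mul_assoc, ← mul_assoc, ← sub_mul, ← hw', mul_inv_cancel₀ hw]
  · refine ⟨w, ?_, caseA ha (hint _) (hφmem r) hrw'⟩
    rw [hrw']
    intro h
    exact hcase (mul_left_cancel₀ hw h)

end Vale.Agent.P199
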