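import Vale.Agent.P199.Basic

namespace Vale.Agent.P199

variable {D : Type*} [DivisionRing D] {F : Type*} [Field F] [Algebra F D]

theorem finiteDimensional_adjoin_singleton {a : D} (ha : IsIntegral F a) :
    FiniteDimensional F (Algebra.adjoin F {a}) :=
  (Subalgebra.finiteDimensional_toSubmodule).mp
    (Module.Finite.iff_fg.mpr ha.fg_adjoin_singleton)

/-- If `F[a] x ⊆ F[x] F[a]`, with `a`, `x` integral over the central subfield `F`, then `F[a, x]` is
finite-dimensional. -/
theorem finiteDimensional_adjoin_pair {a x : D} (ha : IsIntegral F a) (hx : IsIntegral F x)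
    (H : ∀ k ∈ Algebra.adjoin F {a}, k * x ∈
      Subalgebra.toSubmodule (Algebra.adjoin F {x}) * Subalgebra.toSubmodule (Algebra.adjoin F {a})) :
    FiniteDimensional F (Algebra.adjoin F {a, x}) := by
  set K := Algebra.adjoin F {a} with hK
  set P := Algebra.adjoin F {x} with hP
  set M : Submodule F D := Subalgebra.toSubmodule P * Subalgebra.toSubmodule K with hM
  have hMfg : M.FG := Submodule.FG.mul hx.fg_adjoin_singleton ha.fg_adjoin_singleton
  -- P * M ≤ M
  have hPM : ∀ p ∈ P, ∀ m ∈ M, p * m ∈ M := by
    intro p hp m hm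
    have : Subalgebra.toSubmodule P * M ≤ M := by
      rw [hM, ← mul_assoc, (Subalgebra.isIdempotentElem_toSubmodule P).eq]
    exact this (Submodule.mul_mem_mul hp hm)
  have hMK : ∀ m ∈ M, ∀ k ∈ K, m * k ∈ M := by
    intro m hm k hk
    have : M * Subalgebra.toSubmodule K ≤ M := by
      rw [hM, mul_assoc, (Subalgebra.isIdempotentElem_toSubmodule K).eq]
    exact this (Submodule.mul_mem_mul hm hk)
  -- K * P ⊆ M
  have hKP : ∀ p ∈ P, ∀ k ∈ K, k * p ∈ M := by
    intro p hp
    induction hp using Algebra.adjoin_induction with
    | mem y hy =>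
      intro k hk
      rw [Set.mem_singleton_iff.mp hy]
      exact H k hk
    | algebraMap r =>
      intro k hk
      rw [← Algebra.commutes]
      exact Submodule.mul_mem_mul (Subalgebra.algebraMap_mem P r) hk
    | add p q _ _ hp hq =>
      intro k hk
      rw [mul_add]
      exact M.add_mem (hp k hk) (hq k hk)
    | mul p q _ _ hp hq =>
      intro k hk
      rw [← mul_assoc]
      have h1 := hp k hk
      -- M * q ⊆ M
      refine Submodule.mul_induction_on h1 ?_ ?_
      · intro p' hp' k' hk'
        rw [mul_assoc]
        exact hPM p' hp' _ (hq k' hk')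
      · intro u v hu hv
        rw [add_mul]
        exact M.add_mem hu hv
  have hKM : ∀ k ∈ K, ∀ m ∈ M, k * m ∈ M := by
    intro k hk m hm
    refine Submodule.mul_induction_on hm ?_ ?_
    · intro p hp k' hk'
      rw [← mul_assoc]
      exact hMK _ (hKP p hp k hk) k' hk'
    · intro u v hu hv
      rw [mul_add]
      exact M.add_mem hu hv
  have h1M : (1 : D) ∈ M := by
    have := Submodule.mul_mem_mul (M := Subalgebra.toSubmodule P) (N := Subalgebra.toSubmodule K)
      P.one_mem K.one_mem
    simpa using this
  have hstab : ∀ z ∈ Algebra.adjoin F {a, x}, ∀ m ∈ M, z * m ∈ M := by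
    intro z hz
    induction hz using Algebra.adjoin_induction with
    | mem y hy =>
      intro m hm
      rcases hy with rfl | hy
      · exact hKM _ (Algebra.subset_adjoin rfl) m hm
      · rw [Set.mem_singleton_iff.mp hy]
        exact hPM _ (Algebra.subset_adjoin rfl) m hm
    | algebraMap r =>
      intro m hm
      rw [← Algebra.smul_def]
      exact M.smul_mem r hm
    | add p q _ _ hp hq =>
      intro m hm
      rw [add_mul]
      exact M.add_mem (hp m hm) (hq m hm)
    | mul p q _ _ hp hq =>
      intro m hm
      rw [mul_assoc]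
      exact hp _ (hq m hm)
  have hle : Subalgebra.toSubmodule (Algebra.adjoin F {a, x}) ≤ M := by
    intro z hz
    have := hstab z hz 1 h1M
    simpa using this
  rw [← Subalgebra.finiteDimensional_toSubmodule]
  have : FiniteDimensional F M := Module.Finite.iff_fg.mpr hMfg
  exact Submodule.finiteDimensional_of_le hle

end Vale.Agent.P199
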