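import Vale.Agent.P199.Pair

namespace Vale.Agent.P199

open Polynomial

variable {D : Type*} [DivisionRing D] {F : Type*} [Field F] [Algebra F D]
variable {K : Type*} [CommRing K] [Algebra F K]

/-- right multiplication by the image of the commutative ring `K`, as a ring hom into `End_F D`. -/
noncomputable def rho (φ : K →ₐ[F] D) : K →+* Module.End F D where
  toFun k := LinearMap.mulRight F (φ k)
  map_one' := by ext y; simp
  map_mul' k1 k2 := by
    ext y
    simp only [LinearMap.mulRight_apply, Module.End.mul_apply]
    rw [mul_comm k1 k2, map_mul, mul_assoc]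
  map_zero' := by ext y; simp
  map_add' k1 k2 := by ext y; simp [mul_add]

theorem rho_commute (φ : K →ₐ[F] D) (a : D) (k : K) :
    Commute (rho φ k) (LinearMap.mulLeft F a) := by
  ext y
  simp [rho, mul_assoc]

/-- evaluation of polynomials over `K` at left multiplication by `a`, coefficients acting on the right. -/
noncomputable def ev (φ : K →ₐ[F] D) (a : D) : K[X] →+* Module.End F D :=
  eval₂RingHom' (rho φ) (LinearMap.mulLeft F a) (rho_commute φ a)

theorem ev_X_sub_C (φ : K →ₐ[F] D) (a : D) (r : K) (y : D) :
    ev φ a (X - C r) y = a * y - y * φ r := by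
  simp [ev, rho, eval₂_sub]

theorem ev_map (φ : K →ₐ[F] D) (a : D) (f : F[X]) (y : D) :
    ev φ a (f.map (algebraMap F K)) y = (aeval a f) * y := by
  have h1 : (rho φ).comp (algebraMap F K) = algebraMap F (Module.End F D) := by
    ext c y
    simp [rho, Algebra.smul_def, Algebra.commutes]
  have h2 : ev φ a (f.map (algebraMap F K)) = aeval (Algebra.lmul F D a) f := by
    have h3 : ev φ a (f.map (algebraMap F K)) =
        eval₂ (rho φ) (LinearMap.mulLeft F a) (f.map (algebraMap F K)) := rfl
    rw [h3, eval₂_map, h1]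
    rfl
  rw [h2, aeval_algHom_apply]
  rfl

theorem exists_twist (φ : K →ₐ[F] D) (a : D) (r0 : K) (t : List K) :
    ∀ y : D, ev φ a (X - C r0) y ≠ 0 →
      ev φ a ((t.map (fun r => X - C r)).prod) (ev φ a (X - C r0) y) = 0 →
      ∃ r ∈ t, ∃ y' : D, ev φ a (X - C r0) y' ≠ 0 ∧
        ev φ a (X - C r) (ev φ a (X - C r0) y') = 0 := by
  induction t with
  | nil =>
    intro y hy h
    rw [List.map_nil, List.prod_nil, map_one, Module.End.one_apply] at h
    exact absurd h hy
  | cons r t ih =>
    intro y hy h
    rw [List.map_cons, List.prod_cons, map_mul, Module.End.mul_apply] at h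
    by_cases hw : ev φ a ((t.map (fun r => X - C r)).prod) (ev φ a (X - C r0) y) = 0
    · obtain ⟨r', hr', y', h1, h2⟩ := ih y hy hw
      exact ⟨r', List.mem_cons_of_mem _ hr', y', h1, h2⟩
    · have hcomm : ev φ a ((t.map (fun r => X - C r)).prod) (ev φ a (X - C r0) y)
          = ev φ a (X - C r0) (ev φ a ((t.map (fun r => X - C r)).prod) y) := by
        rw [← Module.End.mul_apply, ← Module.End.mul_apply, ← map_mul, ← map_mul, mul_comm]
      rw [hcomm] at h hw
      exact ⟨r, List.mem_cons_self, _, hw, h⟩

end Vale.Agent.P199
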